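import Vale.Agent.P064.BD.Main3
import Vale.Agent.P064.Main

/-!
# P064: all cases of `N(H,F) ≤ E N(G(n, L q), F)` obtained here, in one statement

Hypothesis: every subgraph of `H` (a graph on `Fin n`) has expected count at least `1` in `G(n,q)`.
With `l = ⌈log₂ n⌉`: (a) `L = 108 D` for all `F ⊆ H` if `H` has maximum degree at most `D`;
(b) `L = 108 l` for `d`-degenerate `F ⊆ H` if `n q ^ d ≥ 1`; (c) `L = 108 l` for forests `F ⊆ H`;
(d) `L = 108 l` for all `F ⊆ H` if `6 n q ≤ l`; (e) `L = 240` for all stars.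
-/

namespace Vale.Agent.Results.P064.AllParts

open Vale.Agent.P064

theorem result :
    ∀ (n : ℕ) (H : Finset (Sym2 (Fin n))) (q : ℝ), 2 ≤ n → H ⊆ allEdges n → 0 ≤ q → q ≤ 1 →
      (∀ F' ⊆ H, 1 ≤ expCount n q F') →
      (∀ D : ℕ, 1 ≤ D → (∀ v : Fin n, deg H v ≤ D) → ∀ F ⊆ H,
          (count H F : ℝ) ≤ expCount n (min 1 (108 * D * q)) F) ∧
      (∀ F ⊆ H, ∀ (d : ℕ) (π : Fin n → ℕ), Function.Injective π →
          (∀ w, ((nbr F w).filter (fun u => π u < π w)).card ≤ d) → 1 ≤ (n : ℝ) * q ^ d →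
          (count H F : ℝ) ≤ expCount n (min 1 (108 * (Nat.clog 2 n : ℝ) * q)) F) ∧
      (∀ F ⊆ H, (SimpleGraph.fromEdgeSet (F : Set (Sym2 (Fin n)))).IsAcyclic →
          (count H F : ℝ) ≤ expCount n (min 1 (108 * (Nat.clog 2 n : ℝ) * q)) F) ∧
      (6 * (n : ℝ) * q ≤ (Nat.clog 2 n : ℝ) → ∀ F ⊆ H,
          (count H F : ℝ) ≤ expCount n (min 1 (108 * (Nat.clog 2 n : ℝ) * q)) F) ∧
      (∀ (c : Fin n) (A : Finset (Fin n)), c ∉ A → A.Nonempty →
          (count H (starGraph c A) : ℝ) ≤ expCount n (min 1 (240 * q)) (starGraph c A)) :=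
  fun n H q hn hH hq hq1 hyp =>
    ⟨fun D hD hdeg F hF => BD.bounded_degree n H q D hH hq hD hdeg hyp F hF,
     fun F hF d π hπ hback hd => BD.degenerate n H q hn hH hq hq1 hyp F hF d π hπ hback hd,
     (BD.log_factor n H q hn hH hq hyp).1,
     (BD.log_factor n H q hn hH hq hyp).2,
     fun c A hc hA => stars_universal n H q hn hH hq hyp c A hc hA⟩

end Vale.Agent.Results.P064.AllParts
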