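import Vale.Agent.P064.BD.Main

/-!
# P064: hosts of bounded degree, all subgraphs

Let `H` be a graph on `Fin n` of maximum degree at most `D`. If every subgraph of `H` has expected
count at least `1` in `G(n,q)`, then `N(H,F) ≤ E N(G(n, min {1, 108 D q}), F)` for every subgraph
`F` of `H`.
-/

namespace Vale.Agent.Results.P064.BoundedDegree

open Vale.Agent.P064

theorem result :
    ∀ (n : ℕ) (H : Finset (Sym2 (Fin n))) (q : ℝ) (D : ℕ), H ⊆ allEdges n → 0 ≤ q → 1 ≤ D →
      (∀ v : Fin n, deg H v ≤ D) →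
      (∀ F' ⊆ H, 1 ≤ expCount n q F') →
      ∀ F ⊆ H, (count H F : ℝ) ≤ expCount n (min 1 (108 * D * q)) F :=
  fun n H q D hH hq hD hdeg hyp F hF => BD.bounded_degree n H q D hH hq hD hdeg hyp F hF

end Vale.Agent.Results.P064.BoundedDegree
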