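import Vale.Agent.P064.BD.Main3

/-!
# P064: one logarithm for degenerate subgraphs

Let every subgraph of `H` (a graph on `Fin n`) have expected count at least `1` in `G(n,q)`, and let
`l = ⌈log₂ n⌉`. If `F ⊆ H` has a vertex order in which every vertex has at most `d` earlier
neighbours, and `n q ^ d ≥ 1`, then `N(H,F) ≤ E N(G(n, min {1, 108 l q}), F)`.
-/

namespace Vale.Agent.Results.P064.Degenerate

open Vale.Agent.P064

theorem result :
    ∀ (n : ℕ) (H : Finset (Sym2 (Fin n))) (q : ℝ), 2 ≤ n → H ⊆ allEdges n → 0 ≤ q → q ≤ 1 →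
      (∀ F' ⊆ H, 1 ≤ expCount n q F') →
      ∀ F ⊆ H, ∀ (d : ℕ) (π : Fin n → ℕ), Function.Injective π →
        (∀ w, ((nbr F w).filter (fun u => π u < π w)).card ≤ d) →
        1 ≤ (n : ℝ) * q ^ d →
        (count H F : ℝ) ≤ expCount n (min 1 (108 * (Nat.clog 2 n : ℝ) * q)) F :=
  fun n H q hn hH hq hq1 hyp F hF d π hπ hback hd =>
    BD.degenerate n H q hn hH hq hq1 hyp F hF d π hπ hback hd

end Vale.Agent.Results.P064.Degenerate
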