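import Vale.Agent.P064.BD.Main2

/-!
# P064: one logarithm instead of two, for forests and for sparse thresholds

Let every subgraph of `H` (a graph on `Fin n`) have expected count at least `1` in `G(n,q)` and let
`l = ⌈log₂ n⌉`. Then `N(H,F) ≤ E N(G(n, min {1, 108 l q}), F)` for every acyclic subgraph `F` of
`H`, and for every subgraph `F` of `H` if `6 n q ≤ l`.
-/

namespace Vale.Agent.Results.P064.LogFactor

open Vale.Agent.P064

theorem result :
    ∀ (n : ℕ) (H : Finset (Sym2 (Fin n))) (q : ℝ), 2 ≤ n → H ⊆ allEdges n → 0 ≤ q →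
      (∀ F' ⊆ H, 1 ≤ expCount n q F') →
      (∀ F ⊆ H, (SimpleGraph.fromEdgeSet (F : Set (Sym2 (Fin n)))).IsAcyclic →
          (count H F : ℝ) ≤ expCount n (min 1 (108 * (Nat.clog 2 n : ℝ) * q)) F) ∧
        (6 * (n : ℝ) * q ≤ (Nat.clog 2 n : ℝ) → ∀ F ⊆ H,
          (count H F : ℝ) ≤ expCount n (min 1 (108 * (Nat.clog 2 n : ℝ) * q)) F) :=
  fun n H q hn hH hq hyp => BD.log_factor n H q hn hH hq hyp

end Vale.Agent.Results.P064.LogFactor
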