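import Vale.Agent.P064.Main

/-!
# P064: stars of arbitrary size with a universal constant

If every subgraph of `H` (a graph on `Fin n`) has expected count at least `1` in `G(n,q)`, then
`N(H, K_{1,t}) ≤ E N(G(n, min {1, 240 q}), K_{1,t})` for every `t ≥ 1`.
-/

namespace Vale.Agent.Results.P064.StarsUniversal

open Vale.Agent.P064

theorem result :
    ∀ (n : ℕ) (H : Finset (Sym2 (Fin n))) (q : ℝ), 2 ≤ n → H ⊆ allEdges n → 0 ≤ q → q ≤ 1 →
      (∀ F' ⊆ H, 1 ≤ expCount n q F') →
      ∀ (c : Fin n) (A : Finset (Fin n)), c ∉ A → A.Nonempty →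
        (count H (starGraph c A) : ℝ) ≤ expCount n (min 1 (240 * q)) (starGraph c A) :=
  fun n H q hn hH hq _ hyp c A hc hA => stars_universal n H q hn hH hq hyp c A hc hA

end Vale.Agent.Results.P064.StarsUniversal
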